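import Mathlib

namespace Vale.Agent.Results.P061.CompleteGraphFour

open SimpleGraph

/-- The number of edges of `G` with exactly one endpoint in `S`: each such edge is counted once,
as the ordered pair whose first entry lies in `S` and whose second entry does not. -/
noncomputable def cut {V : Type} (G : SimpleGraph V) (S : Set V) : ℕ :=
  {p : V × V | p.1 ∈ S ∧ p.2 ∉ S ∧ G.Adj p.1 p.2}.ncard

/-- `G` is `k`-edge-connected: every cut defined by a nonempty proper vertex set has at least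
`k` edges. -/
def IsEdgeConnected {V : Type} (G : SimpleGraph V) (k : ℕ) : Prop :=
  ∀ S : Set V, S.Nonempty → Sᶜ.Nonempty → k ≤ cut G S

/-- `T` is an `α`-thin spanning tree of `G`. -/
def IsThinTree {V : Type} (G T : SimpleGraph V) (α : ℝ) : Prop :=
  T ≤ G ∧ T.IsTree ∧ ∀ S : Set V, S.Nonempty → Sᶜ.Nonempty → (cut T S : ℝ) ≤ α * (cut G S : ℝ)

theorem cut_top {n : ℕ} (S : Set (Fin n)) :
    cut (⊤ : SimpleGraph (Fin n)) S = S.ncard * Sᶜ.ncard := by
  classical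
  unfold cut
  have : {p : Fin n × Fin n | p.1 ∈ S ∧ p.2 ∉ S ∧ (⊤ : SimpleGraph (Fin n)).Adj p.1 p.2}
      = S ×ˢ Sᶜ := by
    ext ⟨a, b⟩
    simp only [Set.mem_ofPred_eq, top_adj, Set.mem_prod, Set.mem_compl_iff]
    constructor
    · rintro ⟨h1, h2, _⟩; exact ⟨h1, h2⟩
    · rintro ⟨h1, h2⟩; exact ⟨h1, h2, fun h => h2 (h ▸ h1)⟩
  rw [this, Set.ncard_prod]

theorem ncard_add_compl {n : ℕ} (S : Set (Fin n)) : S.ncard + Sᶜ.ncard = n := by
  have := Set.ncard_add_ncard_compl S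
  simpa using this

theorem cut_tree {n : ℕ} (T : SimpleGraph (Fin n)) (hT : T.IsTree) :
    ∃ S : Set (Fin n), cut T S + 1 = n := by
  classical
  let c := hT.coloringTwo
  refine ⟨{v | c v = 0}, ?_⟩
  have hcard := hT.card_edgeFinset
  rw [Fintype.card_fin] at hcard
  suffices hsuff : cut T {v | c v = 0} = T.edgeFinset.card by omega
  unfold cut
  rw [← Set.ncard_coe_finset T.edgeFinset]
  have hinj : Set.InjOn (fun p : Fin n × Fin n => s(p.1, p.2))
      {p : Fin n × Fin n | p.1 ∈ {v | c v = 0} ∧ p.2 ∉ {v | c v = 0} ∧ T.Adj p.1 p.2} := by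
    rintro ⟨a, b⟩ ⟨ha, hb, _⟩ ⟨a', b'⟩ ⟨ha', hb', _⟩ h
    simp only [Set.mem_ofPred_eq] at ha hb ha' hb'
    simp only [Sym2.eq_iff] at h
    rcases h with ⟨rfl, rfl⟩ | ⟨rfl, rfl⟩
    · rfl
    · exact absurd ha hb'
  rw [← hinj.ncard_image]
  congr 1
  ext e
  simp only [Set.mem_image, Set.mem_ofPred_eq, Prod.exists, coe_edgeFinset]
  constructor
  · rintro ⟨a, b, ⟨_, _, hab⟩, rfl⟩
    exact hab
  · induction e using Sym2.ind with
    | _ a b =>
      intro hab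
      rw [mem_edgeSet] at hab
      have hne : c a ≠ c b := c.valid hab
      by_cases ha : c a = 0
      · refine ⟨a, b, ⟨ha, ?_, hab⟩, rfl⟩
        intro hb; exact hne (ha.trans hb.symm)
      · refine ⟨b, a, ⟨?_, ha, hab.symm⟩, Sym2.eq_swap⟩
        have h1 : c a = 1 := by omega
        by_contra hb
        have h2 : c b = 1 := by omega
        exact hne (h1.trans h2.symm)

theorem bound (k : ℕ) (hk : 1 ≤ k) (T : SimpleGraph (Fin (k + 1))) (α : ℝ)
    (h : IsThinTree ⊤ T α) : (k : ℝ) / (((k + 1) ^ 2 / 4 : ℕ) : ℝ) ≤ α := by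
  obtain ⟨_, hT, hthin⟩ := h
  obtain ⟨S, hS⟩ := cut_tree T hT
  have hcut : cut T S = k := by omega
  have hpos : 0 < cut T S := by omega
  have hne : {p : Fin (k + 1) × Fin (k + 1) | p.1 ∈ S ∧ p.2 ∉ S ∧ T.Adj p.1 p.2}.Nonempty := by
    by_contra hempty
    rw [Set.not_nonempty_iff_eq_empty] at hempty
    unfold cut at hpos
    rw [hempty, Set.ncard_empty] at hpos
    exact lt_irrefl _ hpos
  obtain ⟨⟨a, b⟩, ha, hb, _⟩ := hne
  have h1 := hthin S ⟨a, ha⟩ ⟨b, hb⟩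
  rw [hcut, cut_top] at h1
  have hsum := ncard_add_compl S
  have hle : S.ncard * Sᶜ.ncard ≤ (k + 1) ^ 2 / 4 := by
    rw [Nat.le_div_iff_mul_le (by norm_num)]
    have h4 : S.ncard * Sᶜ.ncard * 4 ≤ (S.ncard + Sᶜ.ncard) ^ 2 := by
      zify
      nlinarith [sq_nonneg ((S.ncard : ℤ) - (Sᶜ.ncard : ℤ))]
    rw [hsum] at h4
    exact h4
  have hprodpos : 0 < S.ncard * Sᶜ.ncard := by
    have hS1 : 0 < S.ncard := by
      rw [Set.ncard_pos]; exact ⟨a, ha⟩
    have hS2 : 0 < Sᶜ.ncard := by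
      rw [Set.ncard_pos]; exact ⟨b, hb⟩
    exact Nat.mul_pos hS1 hS2
  have hkpos : (0 : ℝ) < k := by exact_mod_cast hk
  have hαpos : 0 < α := by
    by_contra hα
    rw [not_lt] at hα
    have : α * ((S.ncard * Sᶜ.ncard : ℕ) : ℝ) ≤ 0 :=
      mul_nonpos_of_nonpos_of_nonneg hα (Nat.cast_nonneg _)
    linarith
  have hD : (0 : ℝ) < (((k + 1) ^ 2 / 4 : ℕ) : ℝ) := by
    have : 0 < (k + 1) ^ 2 / 4 := lt_of_lt_of_le hprodpos hle
    exact_mod_cast this
  rw [div_le_iff₀ hD]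
  calc (k : ℝ) ≤ α * ((S.ncard * Sᶜ.ncard : ℕ) : ℝ) := h1
    _ ≤ α * (((k + 1) ^ 2 / 4 : ℕ) : ℝ) := by
        apply mul_le_mul_of_nonneg_left _ hαpos.le
        exact_mod_cast hle

theorem result :
    (∀ k : ℕ, 1 ≤ k → IsEdgeConnected (⊤ : SimpleGraph (Fin (k + 1))) k) ∧
    (∀ k : ℕ, 1 ≤ k → ∀ (T : SimpleGraph (Fin (k + 1))) (α : ℝ),
      IsThinTree ⊤ T α → (k : ℝ) / (((k + 1) ^ 2 / 4 : ℕ) : ℝ) ≤ α) ∧
    (∀ C : ℝ, (∀ k : ℕ, 1 ≤ k → ∃ T : SimpleGraph (Fin (k + 1)), IsThinTree ⊤ T (C / k)) →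
      4 ≤ C) := by
  refine ⟨?_, bound, ?_⟩
  · intro k hk S hS hSc
    rw [cut_top]
    have hsum := ncard_add_compl S
    have hS1 : 0 < S.ncard := by rw [Set.ncard_pos]; exact hS
    have hS2 : 0 < Sᶜ.ncard := by rw [Set.ncard_pos]; exact hSc
    nlinarith
  · intro C hC
    by_contra hlt
    rw [not_le] at hlt
    obtain ⟨N, hN⟩ := exists_nat_gt (8 / (4 - C))
    have h4C : 0 < 4 - C := by linarith
    set k := N + 1 with hk
    obtain ⟨T, hT⟩ := hC k (by omega)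
    have hb := bound k (by omega) T (C / k) hT
    have hkpos : (0 : ℝ) < k := by positivity
    have hD : (((k + 1) ^ 2 / 4 : ℕ) : ℝ) ≤ ((k : ℝ) + 1) ^ 2 / 4 := by
      have := Nat.cast_div_le (α := ℝ) (m := (k + 1) ^ 2) (n := 4)
      push_cast at this
      exact this
    have hDpos : (0 : ℝ) < (((k + 1) ^ 2 / 4 : ℕ) : ℝ) := by
      have : 0 < (k + 1) ^ 2 / 4 := by
        apply Nat.div_pos _ (by norm_num)
        nlinarith
      exact_mod_cast this
    have h1 : (k : ℝ) / (((k : ℝ) + 1) ^ 2 / 4) ≤ C / k :=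
      le_trans (div_le_div_of_nonneg_left hkpos.le hDpos hD) hb
    rw [div_le_div_iff₀ (by positivity) hkpos] at h1
    have hN' : 8 < (4 - C) * ((k : ℝ) + 1) := by
      have : (8 : ℝ) / (4 - C) < (k : ℝ) + 1 := by
        have : (N : ℝ) < (k : ℝ) + 1 := by rw [hk]; push_cast; linarith
        linarith
      rw [div_lt_iff₀ h4C] at this
      linarith
    nlinarith

end Vale.Agent.Results.P061.CompleteGraphFour
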